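import Vale.Agent.P290.H95.K3Fam
import Vale.Agent.P290.H686.Int
import Vale.Agent.P290.H445.Bridge

/-!
# P290, Phase 2 (helper722, helper470): smooth trivialisation of a family, interface
-/

open scoped Manifold ContDiff Topology
open Set Filter Vale.Agent.P267 Vale.Agent.P290.H805 Vale.Agent.P290.H95 Vale.Agent.P290.H445

noncomputable section

namespace Vale.Agent.P290.H722

variable {V : Type} [NormedAddCommGroup V] [NormedSpace ℂ V] {D : Set V}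
  {E : Type} [TopologicalSpace E] [T2Space E]

/-- the representative of the family of maps `Φ t : Fib F t₀ → E` in the chart `e` of the fibre over
`t₀` and the local trivialisation at `y` -/
def repF {𝓕 : K3Family V D E} {t₀ : D} (Φ : V → (𝓕.k3 t₀).X → E) (e : FL.Ch (𝓕.k3 t₀).X) (y : E)
    (q : V × FL.C2) : All.C2 := (𝓕.F.triv y (Φ q.1 (e.symm q.2))).2

/-- A smooth trivialisation of the family near the fibre over `t₀`. -/
structure SmTriv (𝓕 : K3Family V D E) (t₀ : D) where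
  N : Set V
  isOpen : IsOpen N
  mem : (t₀ : V) ∈ N
  sub : N ⊆ D
  /-- the maps from the fibre over `t₀` to the fibres over `t ∈ N` -/
  Φ : V → (𝓕.k3 t₀).X → E
  p_Φ : ∀ t ∈ N, ∀ x, (𝓕.F.p (Φ t x) : V) = t
  Φ₀ : ∀ x : Fib 𝓕.F t₀, Φ t₀ x = x.val
  cont : ContinuousOn (fun q : V × (𝓕.k3 t₀).X => Φ q.1 q.2) (N ×ˢ univ)
  smooth : ∀ t ∈ N, ∀ (x : (𝓕.k3 t₀).X) (y : E), Φ t x ∈ (𝓕.F.triv y).source →
    ContDiffAt ℝ ∞ (repF Φ (chartAt FL.C2 x) y) (t, chartAt FL.C2 x x)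
  homeo : ∀ (t : V) (ht : t ∈ N), (𝓕.k3 t₀).X ≃ₜ (𝓕.k3 ⟨t, sub ht⟩).X
  homeo_val : ∀ (t : V) (ht : t ∈ N) (x : (𝓕.k3 t₀).X),
    (homeo t ht x : Fib 𝓕.F ⟨t, sub ht⟩).val = Φ t x
  diffeo : ∀ (t : V) (ht : t ∈ N), H686.IsDiffeo (homeo t ht)

end Vale.Agent.P290.H722
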