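import Vale.Agent.P290.H726.Dens3

/-!
# P290, F3-INT (helper722): the cone argument

`p n z`, `n` in a finitely generated group `Z`, additive in `n`, holomorphic near `z = 0`. If the
vector `p' n` of derivatives at `0` is not a combination of `p n 0` and `conj (p n 0)`, and
`B n n ∈ 2ℤ` whenever `p n z = 0` for some `z` near `0`, then `B` is integral and even.
-/

open Filter Topology Set ComplexConjugate

namespace Vale.Agent.P290.H722

open Vale.Agent.P290.H726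

section zeros

variable {ι : Type*} [Fintype ι]

/-- zeros near a real vector -/
theorem zeros_near (f : ι → ℂ → ℂ) (hf : ∀ i, AnalyticAt ℂ (f i) 0) (x₀ : ι → ℝ)
    (h0 : ∑ i, (x₀ i : ℂ) * f i 0 = 0) (h1 : ∑ i, (x₀ i : ℂ) * deriv (f i) 0 ≠ 0) {P : ℂ → Prop}
    (hP : ∀ᶠ z in 𝓝 (0 : ℂ), P z) :
    ∀ᶠ x in 𝓝 x₀, ∃ z, P z ∧ ∑ i, ((x i : ℝ) : ℂ) * f i z = 0 := by
  have s1 : ∀ i, HasStrictFDerivAt (fun p : (ι → ℝ) × ℂ => ((p.1 i : ℝ) : ℂ))
      ((Complex.ofRealCLM.comp (ContinuousLinearMap.proj (R := ℝ) (φ := fun _ : ι => ℝ) i)).comp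
        (ContinuousLinearMap.fst ℝ (ι → ℝ) ℂ)) (x₀, 0) := fun i =>
    ((Complex.ofRealCLM.comp (ContinuousLinearMap.proj (R := ℝ) (φ := fun _ : ι => ℝ) i)).comp
        (ContinuousLinearMap.fst ℝ (ι → ℝ) ℂ)).hasStrictFDerivAt
  have s2 : ∀ i, HasStrictFDerivAt (fun p : (ι → ℝ) × ℂ => f i p.2)
      (((fderiv ℂ (f i) 0).restrictScalars ℝ).comp (ContinuousLinearMap.snd ℝ (ι → ℝ) ℂ)) (x₀, 0) :=
    fun i => by
      have := (hf i).hasStrictFDerivAt.restrictScalars ℝ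
      exact HasStrictFDerivAt.comp (g := f i) (f := fun p : (ι → ℝ) × ℂ => p.2) (x₀, (0 : ℂ)) this
        (ContinuousLinearMap.snd ℝ (ι → ℝ) ℂ).hasStrictFDerivAt
  have s3 : HasStrictFDerivAt (fun p : (ι → ℝ) × ℂ => ∑ i, ((p.1 i : ℝ) : ℂ) * f i p.2) _ (x₀, 0) :=
    HasStrictFDerivAt.fun_sum (u := Finset.univ) fun i _ => (s1 i).mul (s2 i)
  have s4 := (ContinuousLinearMap.fst ℝ (ι → ℝ) ℂ).hasStrictFDerivAt (x := (x₀, (0 : ℂ))) |>.prodMk s3
  have hder : ∀ i, ∀ k : ℂ, fderiv ℂ (f i) 0 k = k * deriv (f i) 0 := fun i k => by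
    have : k = k • (1 : ℂ) := by simp
    conv_lhs => rw [this]
    rw [map_smul, fderiv_apply_one_eq_deriv, smul_eq_mul]
  have hsurj := s4.map_nhds_eq_of_surj (by
    rw [LinearMap.range_eq_top]
    rintro ⟨h, w⟩
    refine ⟨(h, (w - ∑ i, ((h i : ℝ) : ℂ) * f i 0) / ∑ i, (x₀ i : ℂ) * deriv (f i) 0), ?_⟩
    refine Prod.ext rfl ?_
    simp only [ContinuousLinearMap.coe_coe, ContinuousLinearMap.prod_apply,
      FunLike.coe_sum, Finset.sum_apply, _root_.add_apply, _root_.smul_apply,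
      ContinuousLinearMap.comp_apply,
      ContinuousLinearMap.coe_fst', ContinuousLinearMap.coe_snd', smul_eq_mul,
      ContinuousLinearMap.coe_restrictScalars', hder, ContinuousLinearMap.proj_apply,
      Complex.ofRealCLM_apply]
    rw [Finset.sum_add_distrib]
    have e1 : ∀ i, (x₀ i : ℂ) * ((w - ∑ i, ((h i : ℝ) : ℂ) * f i 0) /
        (∑ i, (x₀ i : ℂ) * deriv (f i) 0) * deriv (f i) 0) =
        ((w - ∑ i, ((h i : ℝ) : ℂ) * f i 0) /
        (∑ i, (x₀ i : ℂ) * deriv (f i) 0)) * ((x₀ i : ℂ) * deriv (f i) 0) := fun i => by ring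
    have e2 : ∑ i, f i 0 * ((h i : ℝ) : ℂ) = ∑ i, ((h i : ℝ) : ℂ) * f i 0 :=
      Finset.sum_congr rfl fun i _ => mul_comm _ _
    rw [Finset.sum_congr rfl fun i _ => e1 i, ← Finset.mul_sum, div_mul_cancel₀ _ h1, e2]
    ring)
  have hU : {p : (ι → ℝ) × ℂ | P p.2} ∈ 𝓝 (x₀, (0 : ℂ)) :=
    (continuousAt_snd (p := (x₀, (0 : ℂ)))).eventually hP
  have hI := image_mem_map (m := fun p : (ι → ℝ) × ℂ => ((ContinuousLinearMap.fst ℝ (ι → ℝ) ℂ) p,
    ∑ i, ((p.1 i : ℝ) : ℂ) * f i p.2)) hU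
  rw [hsurj] at hI
  simp only [ContinuousLinearMap.coe_fst', h0] at hI
  have h3 : Tendsto (fun x : ι → ℝ => (x, (0 : ℂ))) (𝓝 x₀) (𝓝 (x₀, 0)) :=
    (continuous_id.prodMk continuous_const).tendsto' _ _ rfl
  filter_upwards [h3 hI] with x hx
  obtain ⟨⟨y, z⟩, hz, he⟩ := hx
  simp only [Prod.mk.injEq] at he
  obtain ⟨rfl, he⟩ := he
  exact ⟨z, hz, he⟩

/-- a real vector orthogonal to `c` and not to `c'` -/
theorem exists_real (c c' : ι → ℂ) (h : ∀ a b : ℂ, ∃ i, c' i ≠ a * c i + b * conj (c i)) :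
    ∃ x : ι → ℝ, ∑ i, (x i : ℂ) * c i = 0 ∧ ∑ i, (x i : ℂ) * c' i ≠ 0 := by
  classical
  by_contra hcon
  push Not at hcon
  have hsum : ∀ (x : ι → ℝ) (d : ι → ℂ), ∑ i, (x i : ℂ) * d i =
      ((∑ i, x i * (d i).re : ℝ) : ℂ) + ((∑ i, x i * (d i).im : ℝ) : ℂ) * Complex.I := by
    intro x d
    push_cast
    rw [Finset.sum_mul, ← Finset.sum_add_distrib]
    refine Finset.sum_congr rfl fun i _ => ?_
    conv_lhs => rw [← Complex.re_add_im (d i)]
    ring
  let R : (ι → ℝ) → ((ι → ℝ) →ₗ[ℝ] ℝ) := fun d => (Fintype.linearCombination ℝ d)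
  have hR : ∀ d x, R d x = ∑ i, x i * d i := fun d x => by
    simp [R, Fintype.linearCombination_apply]
  have hker : ∀ d : ι → ℝ, (∀ x : ι → ℝ, ∑ i, x i * (c i).re = 0 → ∑ i, x i * (c i).im = 0 →
      ∑ i, x i * d i = 0) → ∃ α β : ℝ, ∀ i, d i = α * (c i).re + β * (c i).im := by
    intro d hd
    have h1 : ⨅ k : Fin 2, LinearMap.ker (![R fun i => (c i).re, R fun i => (c i).im] k) ≤
        LinearMap.ker (R d) := by
      intro x hx
      rw [Submodule.mem_iInf] at hx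
      have h2 := hx 0
      have h3 := hx 1
      simp only [Matrix.cons_val_zero, Matrix.cons_val_one, LinearMap.mem_ker, hR] at h2 h3
      rw [LinearMap.mem_ker, hR]
      exact hd x h2 h3
    have h4 := mem_span_of_iInf_ker_le_ker h1
    rw [Submodule.mem_span_range_iff_exists_fun] at h4
    obtain ⟨s, hs⟩ := h4
    refine ⟨s 0, s 1, fun i => ?_⟩
    have h5 := congrArg (fun L => L (Pi.single i 1)) hs
    simp only [Fin.sum_univ_two, Matrix.cons_val_zero, Matrix.cons_val_one, LinearMap.add_apply,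
      LinearMap.smul_apply, hR, smul_eq_mul] at h5
    simp only [Pi.single_apply, ite_mul, one_mul, zero_mul, Finset.sum_ite_eq', Finset.mem_univ,
      if_true] at h5
    exact h5.symm
  have hc' : ∀ x : ι → ℝ, ∑ i, x i * (c i).re = 0 → ∑ i, x i * (c i).im = 0 →
      ∑ i, x i * (c' i).re = 0 ∧ ∑ i, x i * (c' i).im = 0 := by
    intro x h1 h2
    have h3 := hcon x (by rw [hsum, h1, h2]; simp)
    rw [hsum] at h3
    have h4 := congrArg Complex.re h3
    have h5 := congrArg Complex.im h3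
    simp only [Complex.add_re, Complex.ofReal_re, Complex.mul_re, Complex.I_re, mul_zero,
      Complex.ofReal_im, Complex.I_im, mul_one, sub_zero, add_zero, Complex.zero_re,
      Complex.add_im, Complex.mul_im, zero_add, Complex.zero_im, sub_self] at h4 h5
    exact ⟨h4, h5⟩
  obtain ⟨α, β, h1⟩ := hker (fun i => (c' i).re) fun x a b => (hc' x a b).1
  obtain ⟨γ, δ, h2⟩ := hker (fun i => (c' i).im) fun x a b => (hc' x a b).2
  obtain ⟨i, hi⟩ := h ((((α : ℂ) + γ * Complex.I) - Complex.I * ((β : ℂ) + δ * Complex.I)) / 2)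
    ((((α : ℂ) + γ * Complex.I) + Complex.I * ((β : ℂ) + δ * Complex.I)) / 2)
  apply hi
  have h3 := h1 i
  have h4 := h2 i
  have e1 : conj (c i) = ((c i).re : ℂ) - ((c i).im : ℂ) * Complex.I := by
    apply Complex.ext <;> simp
  have e2 : c i = ((c i).re : ℂ) + ((c i).im : ℂ) * Complex.I := (Complex.re_add_im _).symm
  rw [e1]
  conv_rhs => enter [1, 2]; rw [e2]
  rw [← Complex.re_add_im (c' i), h3, h4]
  push_cast
  linear_combination (((β : ℂ) + δ * Complex.I) * ((c i).im : ℂ)) * Complex.I_sq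

end zeros

/-- **The cone argument.** -/
theorem even_of_cone {Z : Type*} [AddCommGroup Z] [Module.Finite ℤ Z] (B : Z →+ Z →+ ℂ)
    (symm : ∀ x y, B x y = B y x) (p : Z → ℂ → ℂ) (p' : Z → ℂ)
    (hadd : ∀ᶠ z in 𝓝 (0 : ℂ), ∀ m n, p (m + n) z = p m z + p n z)
    (hdiff : ∀ n, ∀ᶠ z in 𝓝 (0 : ℂ), DifferentiableAt ℂ (p n) z)
    (hd : ∀ n, deriv (p n) 0 = p' n)
    (hne : ∀ a b : ℂ, ∃ n, p' n ≠ a * p n 0 + b * conj (p n 0))
    (hev : ∀ᶠ z in 𝓝 (0 : ℂ), ∀ n, p n z = 0 → ∃ k : ℤ, B n n = 2 * k) :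
    (∀ x, ∃ k : ℤ, B x x = 2 * k) ∧ ∀ x y, ∃ k : ℤ, B x y = k := by
  obtain ⟨r, g, hg⟩ := Module.Finite.exists_fin' ℤ Z
  -- the values on combinations
  have hz : ∀ z, (∀ m n, p (m + n) z = p m z + p n z) → ∀ x : Fin r → ℤ,
      p (g x) z = ∑ i, (x i : ℂ) * p (g (Pi.single i 1)) z := by
    intro z hz x
    let P : Z →+ ℂ := AddMonoidHom.mk' (fun n => p n z) hz
    have h1 : x = ∑ i, x i • (Pi.single i 1 : Fin r → ℤ) := by
      ext j
      simp [Finset.sum_apply, Pi.single_apply]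
    have h2 : P (g x) = ∑ i, (x i : ℂ) * P (g (Pi.single i 1)) := by
      conv_lhs => rw [h1]
      rw [map_sum, map_sum]
      refine Finset.sum_congr rfl fun i _ => ?_
      rw [map_zsmul, map_zsmul, zsmul_eq_mul]
    exact h2
  set f : Fin r → ℂ → ℂ := fun i z => p (g (Pi.single i 1)) z with hf
  have hfa : ∀ i, AnalyticAt ℂ (f i) 0 := fun i =>
    Complex.analyticAt_iff_eventually_differentiableAt.2 (hdiff _)
  -- the derivatives are additive
  have hp' : ∀ x : Fin r → ℤ, p' (g x) = ∑ i, (x i : ℂ) * deriv (f i) 0 := by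
    intro x
    rw [← hd]
    have h1 : p (g x) =ᶠ[𝓝 0] fun z => ∑ i, (x i : ℂ) * f i z := by
      filter_upwards [hadd] with z hz'
      exact hz z hz' x
    rw [h1.deriv_eq, deriv_fun_sum fun i _ => ((hfa i).differentiableAt.const_mul _)]
    refine Finset.sum_congr rfl fun i _ => ?_
    rw [deriv_const_mul _ (hfa i).differentiableAt]
  obtain ⟨x₀, hx0, hx1⟩ := exists_real (fun i => f i 0) (fun i => deriv (f i) 0) (by
    intro a b
    by_contra hcon
    push Not at hcon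
    obtain ⟨n, hn⟩ := hne a b
    obtain ⟨x, rfl⟩ := hg n
    apply hn
    rw [hp', hz 0 hadd.self_of_nhds x, map_sum, Finset.mul_sum, Finset.mul_sum,
      ← Finset.sum_add_distrib]
    refine Finset.sum_congr rfl fun i _ => ?_
    rw [hcon i, map_mul, map_intCast]
    ring)
  have hzero := zeros_near f hfa x₀ hx0 hx1 (hadd.and hev)
  -- integral vectors in the cone
  have hcone : ∀ y : Fin r → ℤ, ∀ᶠ n : ℕ in atTop,
      ∃ k : ℤ, B (g (flr x₀ n + y)) (g (flr x₀ n + y)) = 2 * k := by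
    intro y
    have h1 : Tendsto (fun n : ℕ => (((n : ℝ) + 1)⁻¹) • zr (flr x₀ n) + (((n : ℝ) + 1)⁻¹) • zr y)
        atTop (𝓝 (x₀ + (0 : ℝ) • zr y)) := by
      refine (tendsto_flr x₀).add ?_
      have h0 : Tendsto (fun n : ℕ => (((n : ℝ) + 1)⁻¹)) atTop (𝓝 0) := by
        simpa using tendsto_one_div_add_atTop_nhds_zero_nat (𝕜 := ℝ)
      exact h0.smul_const (zr y)
    rw [zero_smul, add_zero] at h1
    filter_upwards [h1.eventually hzero] with n hn
    obtain ⟨z, ⟨hz1, hz2⟩, hz3⟩ := hn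
    apply hz2
    rw [hz z hz1]
    have hn0 : ((n : ℂ) + 1) ≠ 0 := by exact_mod_cast Nat.succ_ne_zero n
    have h2 : ∀ i, ((((((n : ℝ) + 1)⁻¹) • zr (flr x₀ n) + (((n : ℝ) + 1)⁻¹) • zr y) i : ℝ) : ℂ) =
        ((n : ℂ) + 1)⁻¹ * (((flr x₀ n + y) i : ℤ) : ℂ) := by
      intro i
      simp only [Pi.add_apply, Pi.smul_apply, smul_eq_mul, zr]
      push_cast
      ring
    have h3 : ∑ i, ((((((n : ℝ) + 1)⁻¹) • zr (flr x₀ n) + (((n : ℝ) + 1)⁻¹) • zr y) i : ℝ) : ℂ) *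
        f i z = ((n : ℂ) + 1)⁻¹ * ∑ i, (((flr x₀ n + y) i : ℤ) : ℂ) * f i z := by
      rw [Finset.mul_sum]
      exact Finset.sum_congr rfl fun i _ => by rw [h2 i]; ring
    rw [h3] at hz3
    exact (mul_eq_zero.1 hz3).resolve_left (inv_ne_zero hn0)
  -- the algebra
  have key : ∀ y z : Z, ∃ x : Z, (∃ k : ℤ, B x x = 2 * k) ∧ (∃ k : ℤ, B (x + y) (x + y) = 2 * k) ∧
      (∃ k : ℤ, B (x + z) (x + z) = 2 * k) ∧ ∃ k : ℤ, B (x + y + z) (x + y + z) = 2 * k := by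
    intro y z
    obtain ⟨y, rfl⟩ := hg y
    obtain ⟨z, rfl⟩ := hg z
    obtain ⟨n, h1, h2, h3, h4⟩ := ((hcone 0).and ((hcone y).and ((hcone z).and
      (hcone (y + z))))).exists
    refine ⟨g (flr x₀ n), ?_, ?_, ?_, ?_⟩
    · simpa using h1
    · rw [← map_add]; exact h2
    · rw [← map_add]; exact h3
    · rw [← map_add, ← map_add, add_assoc]; exact h4
  have hint : ∀ y z, ∃ k : ℤ, B y z = k := by
    intro y z
    obtain ⟨x, ⟨a, ha⟩, ⟨b, hb⟩, ⟨c, hc⟩, ⟨d, hd⟩⟩ := key y z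
    refine ⟨d - b - c + a, ?_⟩
    simp only [map_add, AddMonoidHom.add_apply] at hb hc hd
    rw [symm z y] at hd
    rw [symm y x] at hb hd
    rw [symm z x] at hc hd
    push_cast
    linear_combination (hd - hb - hc + ha) / 2
  refine ⟨fun y => ?_, hint⟩
  obtain ⟨x, ⟨a, ha⟩, ⟨b, hb⟩, -, -⟩ := key y 0
  obtain ⟨m, hm⟩ := hint x y
  refine ⟨b - a - m, ?_⟩
  simp only [map_add, AddMonoidHom.add_apply] at hb
  rw [symm y x, hm] at hb
  push_cast
  linear_combination hb - ha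

end Vale.Agent.P290.H722
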