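import Vale.Agent.P267.H928.Int.FLLin

/-!
# P290, Phase 2 (helper722): differentiation of `intX` with respect to a parameter
-/

set_option linter.unusedSectionVars false
set_option linter.unusedVariables false

open scoped Manifold ContDiff Topology ComplexConjugate
open MeasureTheory Set Filter Vale.Agent.P267.FL

noncomputable section

namespace Vale.Agent.P290.H722

section param

variable {V : Type*} [NormedAddCommGroup V] [NormedSpace ℝ V]

/-- partial derivative -/
theorem hasFDerivAt_part {W : Type*} [NormedAddCommGroup W] [NormedSpace ℝ W] (f : V × C2 → W)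
    {t : V} {z : C2} (h : DifferentiableAt ℝ f (t, z)) : HasFDerivAt (fun t => f (t, z))
      ((fderiv ℝ f (t, z)).comp (ContinuousLinearMap.inl ℝ V C2)) t :=
  h.hasFDerivAt.comp t (hasFDerivAt_prodMk_left t z)

/-- Differentiation under the integral sign over a compact set, with a continuous weight. -/
theorem hasFDerivAt_integral_compact {f : V × C2 → ℂ} {g : C2 → ℂ} {K : Set C2} (hK : IsCompact K)
    {t₁ : V} (hg : ContinuousOn g K) (hf : ∀ z ∈ K, ContDiffAt ℝ 1 f (t₁, z)) :
    HasFDerivAt (fun t => ∫ z in K, g z * f (t, z))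
      (∫ z in K, g z • fderiv ℝ (fun t => f (t, z)) t₁) t₁ := by
  -- the open set where `f` is `C^1`
  set O : Set (V × C2) := {q | ∀ᶠ q' in 𝓝 q, ContDiffAt ℝ 1 f q'} with hO
  have hOo : IsOpen O := isOpen_setOfPred_eventually_nhds
  have hOf : ∀ q ∈ O, ContDiffAt ℝ 1 f q := fun q hq => hq.self_of_nhds
  have hKO : ∀ z ∈ K, (t₁, z) ∈ O := fun z hz => (hf z hz).eventually (by simp)
  have hcf : ContinuousOn (fderiv ℝ f) O := fun q hq =>
    ((hOf q hq).continuousAt_fderiv (by simp)).continuousWithinAt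
  have hK1 : IsCompact (({t₁} : Set V) ×ˢ K) := isCompact_singleton.prod hK
  have hK1O : ({t₁} : Set V) ×ˢ K ⊆ O := by
    rintro ⟨t, z⟩ ⟨ht, hz⟩
    obtain rfl : t = t₁ := ht
    exact hKO z hz
  obtain ⟨C, hC⟩ := hK1.exists_bound_of_continuousOn (hcf.mono hK1O)
  set O' : Set (V × C2) := O ∩ (fun q => ‖fderiv ℝ f q‖) ⁻¹' Iio (C + 1) with hO'
  have hO'o : IsOpen O' := hcf.norm.isOpen_inter_preimage hOo isOpen_Iio
  obtain ⟨U, W, hU, hW, htU, hKW, hUW⟩ := generalized_tube_lemma
    (isCompact_singleton (x := t₁)) hK hO'o (by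
      rintro ⟨t, z⟩ ⟨ht, hz⟩
      obtain rfl : t = t₁ := ht
      refine ⟨hKO z hz, ?_⟩
      have := hC (t, z) ⟨rfl, hz⟩
      show ‖fderiv ℝ f (t, z)‖ < C + 1
      linarith)
  have htU' : U ∈ 𝓝 t₁ := hU.mem_nhds (htU rfl)
  have hpart : ∀ t ∈ U, ∀ z ∈ K, HasFDerivAt (fun t => f (t, z))
      ((fderiv ℝ f (t, z)).comp (ContinuousLinearMap.inl ℝ V C2)) t := by
    intro t ht z hz
    have h1 : (t, z) ∈ O' := hUW ⟨ht, hKW hz⟩
    exact hasFDerivAt_part f ((hOf _ h1.1).differentiableAt (by simp))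
  obtain ⟨B, hB⟩ := hK.exists_bound_of_continuousOn hg
  have hB0 : 0 ≤ max B 0 := le_max_right _ _
  have hfin : IsFiniteMeasure (volume.restrict K : Measure C2) :=
    isFiniteMeasure_restrict.2 hK.measure_lt_top.ne
  have hmK : MeasurableSet K := hK.measurableSet
  have key := hasFDerivAt_integral_of_dominated_of_fderiv_le
    (μ := (volume.restrict K : Measure C2)) (F := fun t z => g z * f (t, z))
    (F' := fun t z => g z • ((fderiv ℝ f (t, z)).comp (ContinuousLinearMap.inl ℝ V C2)))
    (x₀ := t₁) (s := U) (bound := fun _ => max B 0 * (C + 1)) htU' ?_ ?_ ?_ ?_ ?_ ?_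
  · refine key.congr_fderiv ?_
    refine setIntegral_congr_fun hmK fun z hz => ?_
    show g z • _ = g z • _
    rw [(hpart t₁ (htU rfl) z hz).fderiv]
  · filter_upwards [htU'] with t ht
    refine ContinuousOn.aestronglyMeasurable ?_ hmK
    refine hg.mul fun z hz => ?_
    have h1 : (t, z) ∈ O' := hUW ⟨ht, hKW hz⟩
    have h2 : ContinuousAt f (t, z) := (hOf _ h1.1).continuousAt
    exact (h2.comp (f := fun z : C2 => (t, z)) (x := z) (by fun_prop)).continuousWithinAt
  · refine ContinuousOn.integrableOn_compact hK ?_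
    refine hg.mul fun z hz => ?_
    have h2 : ContinuousAt f (t₁, z) := (hf z hz).continuousAt
    exact (h2.comp (f := fun z : C2 => (t₁, z)) (x := z) (by fun_prop)).continuousWithinAt
  · refine ContinuousOn.aestronglyMeasurable ?_ hmK
    refine hg.smul fun z hz => ?_
    have h2 : ContinuousAt (fderiv ℝ f) (t₁, z) := (hf z hz).continuousAt_fderiv (by simp)
    have h3 : ContinuousAt (fun z : C2 => fderiv ℝ f (t₁, z)) z :=
      h2.comp (f := fun z : C2 => (t₁, z)) (x := z) (by fun_prop)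
    exact (h3.clm_comp continuousAt_const).continuousWithinAt
  · rw [ae_restrict_iff' hmK]
    refine Eventually.of_forall fun z hz t ht => ?_
    have h1 : (t, z) ∈ O' := hUW ⟨ht, hKW hz⟩
    have h2 : ‖fderiv ℝ f (t, z)‖ < C + 1 := h1.2
    rw [norm_smul]
    have h3 : ‖(fderiv ℝ f (t, z)).comp (ContinuousLinearMap.inl ℝ V C2)‖ ≤ C + 1 := by
      refine (ContinuousLinearMap.opNorm_comp_le _ _).trans ?_
      have h4 := ContinuousLinearMap.norm_inl_le_one ℝ V C2
      calc ‖fderiv ℝ f (t, z)‖ * ‖ContinuousLinearMap.inl ℝ V C2‖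
          ≤ ‖fderiv ℝ f (t, z)‖ * 1 := mul_le_mul_of_nonneg_left h4 (norm_nonneg _)
        _ ≤ C + 1 := by rw [mul_one]; exact h2.le
    exact mul_le_mul ((hB z hz).trans (le_max_left _ _)) h3 (norm_nonneg _) hB0
  · exact integrable_const _
  · rw [ae_restrict_iff' hmK]
    refine Eventually.of_forall fun z hz t ht => ?_
    exact (hpart t ht z hz).const_smul (g z)

end param

section top

variable {X : Type*} [TopologicalSpace X] [ChartedSpace C2 X]
variable {V : Type*} [NormedAddCommGroup V] [NormedSpace ℝ V]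

/-- `b t`, `t ∈ N`, is a family of top forms of class `C^1` in `(t, z)` in all charts -/
def TopFam (b : V → X → ℂ) (N : Set V) : Prop :=
  ∀ t ∈ N, ∀ e ∈ atlas C2 X, ∀ z ∈ e.target,
    ContDiffAt ℝ 1 (fun q : V × C2 => loc2 1 e (b q.1) q.2) (t, z)

/-- the derivative in the parameter -/
def dTop (b : V → X → ℂ) (t₁ u : V) (x : X) : ℂ := fderiv ℝ (fun t => b t x) t₁ u

variable {b : V → X → ℂ} {N : Set V} {t₁ : V}

theorem TopFam.continuousAt_loc (h : TopFam b N) (ht : t₁ ∈ N) {e : Ch X} (he : e ∈ atlas C2 X)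
    {z : C2} (hz : z ∈ e.target) : ContinuousAt (fun z : C2 => loc2 1 e (b t₁) z) z :=
  ContinuousAt.comp (g := fun q : V × C2 => loc2 1 e (b q.1) q.2) (f := fun z : C2 => (t₁, z))
    (x := z) (h t₁ ht e he z hz).continuousAt (by fun_prop)

theorem TopFam.reg (h : TopFam b N) (ht : t₁ ∈ N) : Reg2 0 1 (b t₁) := fun e he =>
  contDiffOn_zero.2 fun z hz => (h.continuousAt_loc ht he hz).continuousWithinAt

variable [IsManifold 𝓘(ℂ, C2) ω X]

theorem TopFam.hasFDerivAt_coeff (h : TopFam b N) (ht : t₁ ∈ N) (x : X) :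
    HasFDerivAt (fun t => b t x) (fderiv ℝ (fun t => b t x) t₁) t₁ := by
  have h1 := h t₁ ht _ (chart_mem_atlas C2 x) _ (mem_chart_target C2 x)
  have h2 : (fun t => b t x) = fun t => loc2 1 (chartAt C2 x) (b t) (chartAt C2 x x) := by
    funext t
    rw [loc2_chartAt]
  have h3 : DifferentiableAt ℝ (fun t => loc2 1 (chartAt C2 x) (b t) (chartAt C2 x x)) t₁ :=
    DifferentiableAt.comp (g := fun q : V × C2 => loc2 1 (chartAt C2 x) (b q.1) q.2)
      (f := fun t : V => (t, chartAt C2 x x)) t₁ (h1.differentiableAt (by simp)) (by fun_prop)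
  rw [← h2] at h3
  exact h3.hasFDerivAt

theorem TopFam.loc_dTop (h : TopFam b N) (ht : t₁ ∈ N) (u : V) (e : Ch X) (z : C2) :
    loc2 1 e (dTop b t₁ u) z = fderiv ℝ (fun t => loc2 1 e (b t) z) t₁ u := by
  have h1 := h.hasFDerivAt_coeff ht (e.symm z)
  have h2 := (h1.const_smul (conj (jac e (e.symm z)).det)).const_smul
    ((jac e (e.symm z)).det ^ (1 : ℤ))
  have h3 : HasFDerivAt (fun t => loc2 1 e (b t) z) _ t₁ := h2
  rw [h3.fderiv]
  rfl

theorem TopFam.reg_dTop (h : TopFam b N) (ht : t₁ ∈ N) (u : V) : Reg2 0 1 (dTop b t₁ u) := by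
  intro e he
  refine contDiffOn_zero.2 fun z hz => ContinuousAt.continuousWithinAt ?_
  have h1 := h t₁ ht e he z hz
  have h2 : ContinuousAt (fderiv ℝ fun q : V × C2 => loc2 1 e (b q.1) q.2) (t₁, z) :=
    h1.continuousAt_fderiv (by simp)
  have h3 : ContinuousAt (fun z : C2 => fderiv ℝ (fun q : V × C2 => loc2 1 e (b q.1) q.2)
      (t₁, z) (u, 0)) z :=
    (h2.comp (f := fun z : C2 => (t₁, z)) (x := z) (by fun_prop)).clm_apply continuousAt_const
  refine h3.congr ?_
  filter_upwards [e.open_target.mem_nhds hz] with w hw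
  rw [h.loc_dTop ht]
  rw [(hasFDerivAt_part (fun q : V × C2 => loc2 1 e (b q.1) q.2)
    ((h t₁ ht e he w hw).differentiableAt (by simp))).fderiv]
  rfl

variable [T2Space X] [CompactSpace X]

/-- **Differentiation of `intX` with respect to a parameter.** -/
theorem TopFam.hasFDerivAt_intX (h : TopFam b N) (hN : IsOpen N) (ht : t₁ ∈ N) :
    ∃ L : V →L[ℝ] ℂ, HasFDerivAt (fun t => intX (b t)) L t₁ ∧ ∀ u, L u = intX (dTop b t₁ u) := by
  have hcs : ∀ c : X → ℂ, HasCompactSupport c := fun c => HasCompactSupport.of_compactSpace c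
  obtain ⟨n, e, r, he, hr, hrc, hrs, hsum⟩ := exists_finite_pou (isCompact_univ (X := X))
  have hint : ∀ c : X → ℂ, Reg2 0 1 c → intX c =
      ∑ i, ∫ z in (e i).target, (4 * (r i ((e i).symm z) : ℂ)) * loc2 1 (e i) c z := fun c hc =>
    (hasInt_intX hc (hcs c) n e r he hr hrc hrs fun x _ => hsum x (mem_univ x)).symm
  -- compact supports in the charts
  set K : Fin n → Set C2 := fun i => (e i) '' tsupport (r i) with hKd
  have hK : ∀ i, IsCompact (K i) := fun i =>
    (hrc i).image_of_continuousOn ((e i).continuousOn.mono (hrs i))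
  have hKt : ∀ i, K i ⊆ (e i).target := by
    rintro i _ ⟨x, hx, rfl⟩
    exact (e i).map_source (hrs i hx)
  have hK0 : ∀ i, ∀ z ∈ (e i).target \ K i, r i ((e i).symm z) = 0 := by
    intro i z hz
    by_contra h0
    exact hz.2 ⟨(e i).symm z, subset_tsupport _ h0, (e i).right_inv hz.1⟩
  have hloc : ∀ (i : Fin n) (c : X → ℂ), (∫ z in (e i).target,
      (4 * (r i ((e i).symm z) : ℂ)) * loc2 1 (e i) c z) =
      ∫ z in K i, (4 * (r i ((e i).symm z) : ℂ)) * loc2 1 (e i) c z := by
    intro i c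
    refine setIntegral_eq_of_subset_of_forall_sdiff_eq_zero (e i).open_target.measurableSet (hKt i)
      fun z hz => ?_
    rw [hK0 i z hz]
    simp
  have hg : ∀ i, ContinuousOn (fun z => (4 * (r i ((e i).symm z) : ℂ))) (K i) := by
    intro i
    refine continuousOn_const.mul ?_
    exact Complex.continuous_ofReal.comp_continuousOn ((hr i).comp_continuousOn
      ((e i).continuousOn_symm.mono (hKt i)))
  have hder : ∀ i, HasFDerivAt (fun t => ∫ z in K i, (4 * (r i ((e i).symm z) : ℂ)) *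
      loc2 1 (e i) (b t) z) (∫ z in K i, (4 * (r i ((e i).symm z) : ℂ)) •
        fderiv ℝ (fun t => loc2 1 (e i) (b t) z) t₁) t₁ := fun i =>
    hasFDerivAt_integral_compact (f := fun q : V × C2 => loc2 1 (e i) (b q.1) q.2) (hK i) (hg i)
      fun z hz => h t₁ ht (e i) (he i) z (hKt i hz)
  have hsumd := HasFDerivAt.fun_sum (u := Finset.univ) fun i _ => hder i
  refine ⟨_, hsumd.congr_of_eventuallyEq ?_, fun u => ?_⟩
  · filter_upwards [hN.mem_nhds ht] with t htN
    rw [hint _ (h.reg htN)]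
    exact Finset.sum_congr rfl fun i _ => hloc i _
  · rw [hint _ (h.reg_dTop ht u), _root_.sum_apply]
    refine Finset.sum_congr rfl fun i _ => ?_
    rw [hloc, ContinuousLinearMap.integral_apply]
    · refine setIntegral_congr_fun (hK i).measurableSet fun z hz => ?_
      show _ = _ * loc2 1 (e i) (dTop b t₁ u) z
      rw [h.loc_dTop ht]
      rfl
    · refine ContinuousOn.integrableOn_compact (hK i) ?_
      refine (hg i).smul fun z hz => ContinuousAt.continuousWithinAt ?_
      have h1 := h t₁ ht (e i) (he i) z (hKt i hz)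
      have h2 : ContinuousAt (fderiv ℝ fun q : V × C2 => loc2 1 (e i) (b q.1) q.2) (t₁, z) :=
        h1.continuousAt_fderiv (by simp)
      have h3 : ContinuousAt (fun z : C2 => (fderiv ℝ (fun q : V × C2 => loc2 1 (e i) (b q.1) q.2)
          (t₁, z)).comp (ContinuousLinearMap.inl ℝ V C2)) z :=
        (h2.comp (f := fun z : C2 => (t₁, z)) (x := z) (by fun_prop)).clm_comp continuousAt_const
      refine h3.congr ?_
      filter_upwards [(e i).open_target.mem_nhds (hKt i hz)] with w hw
      exact (hasFDerivAt_part (fun q : V × C2 => loc2 1 (e i) (b q.1) q.2)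
        ((h t₁ ht (e i) (he i) w hw).differentiableAt (by simp))).fderiv.symm

end top

end Vale.Agent.P290.H722
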