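import Vale.Agent.P290.H722.SmFam

/-!
# P290, Phase 2 (helper722): the local computation for the periods

`r (t, z)` smooth with values in `ℂ²`, `g (t, w)` holomorphic, `tl = r^* (g dw₁ ∧ dw₂)` (vertical
part). The derivative of `tl` in the direction `ū` is the exterior derivative of the one-form
`al = g det (∂_ū r, d_z r)`.
-/

set_option linter.unusedSectionVars false
set_option linter.unusedVariables false

open scoped Manifold ContDiff Topology ComplexConjugate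
open Set Filter Vale.Agent.P267.FL Vale.Agent.P290.H686

noncomputable section

namespace Vale.Agent.P290.H722

/-- `a₁ b₂ - a₂ b₁` -/
def det2 (a b : ℂ × ℂ) : ℂ := a.1 * b.2 - a.2 * b.1

theorem det2_swap (a b : ℂ × ℂ) : det2 a b = -det2 b a := by
  simp only [det2]
  ring

theorem lin_eq {F : Type*} [NormedAddCommGroup F] [NormedSpace ℂ F] (A : ℂ × ℂ →L[ℂ] F)
    (u : ℂ × ℂ) : A u = u.1 • A (1, 0) + u.2 • A (0, 1) := by
  have h : u = u.1 • ((1, 0) : ℂ × ℂ) + u.2 • ((0, 1) : ℂ × ℂ) := by ext <;> simp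
  conv_lhs => rw [h]
  rw [map_add, map_smul, map_smul]

theorem det_eq (A : ℂ × ℂ →L[ℂ] ℂ × ℂ) :
    A.det = (A (1, 0)).1 * (A (0, 1)).2 - (A (0, 1)).1 * (A (1, 0)).2 := by
  have h := LinearMap.det_toMatrix (Module.Basis.finTwoProd ℂ) (A : ℂ × ℂ →ₗ[ℂ] ℂ × ℂ)
  have h2 : A.det = LinearMap.det (A : ℂ × ℂ →ₗ[ℂ] ℂ × ℂ) := rfl
  rw [h2, ← h, Matrix.det_fin_two]
  simp [LinearMap.toMatrix_apply]

theorem det2_map (A : ℂ × ℂ →L[ℂ] ℂ × ℂ) (a b : ℂ × ℂ) : det2 (A a) (A b) = A.det * det2 a b := by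
  rw [det_eq, lin_eq A a, lin_eq A b]
  simp only [det2, Prod.fst_add, Prod.smul_fst, smul_eq_mul, Prod.snd_add, Prod.smul_snd]
  ring

section prod

variable {W : Type*} [NormedAddCommGroup W] [NormedSpace ℝ W]

theorem hasFDerivAt_mul_det2 {f : W → ℂ} {A B : W → ℂ × ℂ} {x : W} {f' : W →L[ℝ] ℂ}
    {A' B' : W →L[ℝ] ℂ × ℂ} (hf : HasFDerivAt f f' x) (hA : HasFDerivAt A A' x)
    (hB : HasFDerivAt B B' x) : ∃ L : W →L[ℝ] ℂ,
      HasFDerivAt (fun y => f y * det2 (A y) (B y)) L x ∧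
      ∀ p, L p = f' p * det2 (A x) (B x) + f x * (det2 (A' p) (B x) + det2 (A x) (B' p)) := by
  have h1 := (hA.fst.mul hB.snd).sub (hA.snd.mul hB.fst)
  have h2 := hf.mul h1
  refine ⟨_, h2, fun p => ?_⟩
  simp [det2]
  ring

end prod

variable {V : Type*} [NormedAddCommGroup V] [NormedSpace ℂ V]

/-- the vertical two-form `r^* (g dw₁ ∧ dw₂)` -/
def tl (g : V × (ℂ × ℂ) → ℂ) (r : V × C2 → ℂ × ℂ) (q : V × C2) (a b : C2) : ℂ :=
  g (q.1, r q) * det2 (fderiv ℝ r q (0, a)) (fderiv ℝ r q (0, b))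

/-- `∂_ū r` -/
def kk (r : V × C2 → ℂ × ℂ) (t₁ u : V) (z : C2) : ℂ × ℂ :=
  (1 / 2 : ℂ) • (fderiv ℝ r (t₁, z) (u, 0) + Complex.I • fderiv ℝ r (t₁, z) (Complex.I • u, 0))

/-- the one-form `g det (∂_ū r, d_z r)` -/
def al (g : V × (ℂ × ℂ) → ℂ) (r : V × C2 → ℂ × ℂ) (t₁ u : V) (z b : C2) : ℂ :=
  g (t₁, r (t₁, z)) * det2 (kk r t₁ u z) (fderiv ℝ r (t₁, z) (0, b))

variable {g : V × (ℂ × ℂ) → ℂ} {r : V × C2 → ℂ × ℂ} {t₁ : V} {z : C2}

/-- the second derivative of `r` -/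
def B2 (r : V × C2 → ℂ × ℂ) (q : V × C2) : V × C2 →L[ℝ] V × C2 →L[ℝ] ℂ × ℂ :=
  fderiv ℝ (fderiv ℝ r) q

theorem hasFDerivAt_D {q : V × C2} (hr : ContDiffAt ℝ 2 r q) :
    HasFDerivAt (fderiv ℝ r) (B2 r q) q :=
  ((hr.fderiv_right (m := 1) (by norm_num)).differentiableAt (by norm_num)).hasFDerivAt

theorem hasFDerivAt_tl (hr : ContDiffAt ℝ 2 r (t₁, z))
    (hg : DifferentiableAt ℂ g (t₁, r (t₁, z))) (a b : C2) : ∃ L : V × C2 →L[ℝ] ℂ,
      HasFDerivAt (fun q => tl g r q a b) L (t₁, z) ∧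
      ∀ p, L p = fderiv ℂ g (t₁, r (t₁, z)) (p.1, fderiv ℝ r (t₁, z) p) *
          det2 (fderiv ℝ r (t₁, z) (0, a)) (fderiv ℝ r (t₁, z) (0, b)) +
        g (t₁, r (t₁, z)) * (det2 (B2 r (t₁, z) p (0, a)) (fderiv ℝ r (t₁, z) (0, b)) +
          det2 (fderiv ℝ r (t₁, z) (0, a)) (B2 r (t₁, z) p (0, b))) := by
  have h1 : HasFDerivAt r (fderiv ℝ r (t₁, z)) (t₁, z) :=
    (hr.differentiableAt (by norm_num)).hasFDerivAt
  have h2 : HasFDerivAt (fun q : V × C2 => (q.1, r q))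
      ((ContinuousLinearMap.fst ℝ V C2).prod (fderiv ℝ r (t₁, z))) (t₁, z) :=
    HasFDerivAt.prodMk hasFDerivAt_fst h1
  have h3 : HasFDerivAt (fun q : V × C2 => g (q.1, r q))
      (((fderiv ℂ g (t₁, r (t₁, z))).restrictScalars ℝ).comp
        ((ContinuousLinearMap.fst ℝ V C2).prod (fderiv ℝ r (t₁, z)))) (t₁, z) :=
    (hg.hasFDerivAt.restrictScalars ℝ).comp (t₁, z) h2
  have h4 : ∀ a, HasFDerivAt (fun q : V × C2 => fderiv ℝ r q (0, a)) _ (t₁, z) := fun a =>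
    (hasFDerivAt_D hr).clm_apply (hasFDerivAt_const (0, a) (t₁, z))
  obtain ⟨L, hL, hL2⟩ := hasFDerivAt_mul_det2 h3 (h4 a) (h4 b)
  refine ⟨L, hL, fun p => ?_⟩
  rw [hL2]
  simp

theorem hasFDerivAt_al (hr : ContDiffAt ℝ 2 r (t₁, z))
    (hg : DifferentiableAt ℂ g (t₁, r (t₁, z))) (u : V) (b : C2) : ∃ L : C2 →L[ℝ] ℂ,
      HasFDerivAt (fun z => al g r t₁ u z b) L z ∧
      ∀ a, L a = fderiv ℂ g (t₁, r (t₁, z)) (0, fderiv ℝ r (t₁, z) (0, a)) *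
          det2 (kk r t₁ u z) (fderiv ℝ r (t₁, z) (0, b)) +
        g (t₁, r (t₁, z)) * (det2 ((1 / 2 : ℂ) • (B2 r (t₁, z) (0, a) (u, 0) +
            Complex.I • B2 r (t₁, z) (0, a) (Complex.I • u, 0))) (fderiv ℝ r (t₁, z) (0, b)) +
          det2 (kk r t₁ u z) (B2 r (t₁, z) (0, a) (0, b))) := by
  have hi : HasFDerivAt (fun z : C2 => (t₁, z)) (ContinuousLinearMap.inr ℝ V C2) z :=
    hasFDerivAt_prodMk_right t₁ z
  have h1 : HasFDerivAt (fun z => r (t₁, z))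
      ((fderiv ℝ r (t₁, z)).comp (ContinuousLinearMap.inr ℝ V C2)) z :=
    (hr.differentiableAt (by norm_num)).hasFDerivAt.comp z hi
  have h2 : HasFDerivAt (fun z : C2 => (t₁, r (t₁, z)))
      ((0 : C2 →L[ℝ] V).prod ((fderiv ℝ r (t₁, z)).comp (ContinuousLinearMap.inr ℝ V C2))) z :=
    HasFDerivAt.prodMk (hasFDerivAt_const t₁ z) h1
  have h3 : HasFDerivAt (fun z : C2 => g (t₁, r (t₁, z)))
      (((fderiv ℂ g (t₁, r (t₁, z))).restrictScalars ℝ).comp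
        ((0 : C2 →L[ℝ] V).prod ((fderiv ℝ r (t₁, z)).comp (ContinuousLinearMap.inr ℝ V C2)))) z :=
    (hg.hasFDerivAt.restrictScalars ℝ).comp z h2
  have h4 : HasFDerivAt (fun z : C2 => fderiv ℝ r (t₁, z))
      ((B2 r (t₁, z)).comp (ContinuousLinearMap.inr ℝ V C2)) z :=
    (hasFDerivAt_D hr).comp z hi
  have h5 : ∀ v : V × C2, HasFDerivAt (fun z : C2 => fderiv ℝ r (t₁, z) v)
      (((B2 r (t₁, z)).comp (ContinuousLinearMap.inr ℝ V C2)).flip v) z := fun v => by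
    refine (h4.clm_apply (hasFDerivAt_const v z)).congr_fderiv ?_
    ext a <;> simp
  have h6 : HasFDerivAt (fun z => kk r t₁ u z)
      ((1 / 2 : ℂ) • ((((B2 r (t₁, z)).comp (ContinuousLinearMap.inr ℝ V C2)).flip (u, 0)) +
        Complex.I • (((B2 r (t₁, z)).comp (ContinuousLinearMap.inr ℝ V C2)).flip
          (Complex.I • u, 0)))) z :=
    ((h5 (u, 0)).add ((h5 (Complex.I • u, 0)).const_smul Complex.I)).const_smul (1 / 2 : ℂ)
  obtain ⟨L, hL, hL2⟩ := hasFDerivAt_mul_det2 h3 h6 (h5 (0, b))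
  refine ⟨L, hL, fun p => ?_⟩
  rw [hL2]
  simp

/-- **The local identity.** -/
theorem loc_identity (hr : ContDiffAt ℝ 2 r (t₁, z))
    (hg : DifferentiableAt ℂ g (t₁, r (t₁, z))) (u : V) (a b : C2) :
    (1 / 2 : ℂ) * (fderiv ℝ (fun q => tl g r q a b) (t₁, z) (u, 0) +
      Complex.I * fderiv ℝ (fun q => tl g r q a b) (t₁, z) (Complex.I • u, 0)) =
    fderiv ℝ (fun z => al g r t₁ u z b) z a - fderiv ℝ (fun z => al g r t₁ u z a) z b := by
  obtain ⟨L, hL, hL2⟩ := hasFDerivAt_tl hr hg a b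
  obtain ⟨M, hM, hM2⟩ := hasFDerivAt_al hr hg u b
  obtain ⟨M', hM', hM2'⟩ := hasFDerivAt_al hr hg u a
  have hsym : ∀ p q, B2 r (t₁, z) p q = B2 r (t₁, z) q p := fun p q =>
    (hr.isSymmSndFDerivAt (by simp)) p q
  rw [hL.fderiv, hM.fderiv, hM'.fderiv, hL2, hL2, hM2, hM2', hsym (0, a) (u, 0),
    hsym (0, a) (Complex.I • u, 0), hsym (0, b) (u, 0), hsym (0, b) (Complex.I • u, 0),
    hsym (0, b) (0, a)]
  set G := g (t₁, r (t₁, z))
  set D := fderiv ℂ g (t₁, r (t₁, z)) with hD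
  -- the value of `D`
  have hDv : ∀ (v : V) (w : ℂ × ℂ), D (v, w) = D (v, 0) + w.1 * D (0, (1, 0)) +
      w.2 * D (0, (0, 1)) := by
    intro v w
    have h : ((v, w) : V × (ℂ × ℂ)) = (v, 0) + w.1 • ((0, (1, 0)) : V × (ℂ × ℂ)) +
        w.2 • ((0, (0, 1)) : V × (ℂ × ℂ)) := by ext <;> simp
    conv_lhs => rw [h]
    rw [map_add, map_add, map_smul, map_smul, smul_eq_mul, smul_eq_mul]
  have hDI : D (Complex.I • u, 0) = Complex.I * D (u, 0) := by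
    have h : ((Complex.I • u, 0) : V × (ℂ × ℂ)) = Complex.I • ((u, 0) : V × (ℂ × ℂ)) := by
      ext <;> simp
    rw [h, map_smul, smul_eq_mul]
  have hI : Complex.I * Complex.I = -1 := Complex.I_mul_I
  rw [hDv u, hDv (Complex.I • u), hDv 0 (fderiv ℝ r (t₁, z) (0, a)),
    hDv 0 (fderiv ℝ r (t₁, z) (0, b)), hDI, Prod.mk_zero_zero, map_zero]
  set ra := fderiv ℝ r (t₁, z) (0, a)
  set rb := fderiv ℝ r (t₁, z) (0, b)
  set ru := fderiv ℝ r (t₁, z) (u, 0) with hru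
  set ri := fderiv ℝ r (t₁, z) (Complex.I • u, 0) with hri
  simp only [det2, kk, ← hru, ← hri, Prod.fst_add, Prod.smul_fst, smul_eq_mul, Prod.snd_add,
    Prod.smul_snd]
  linear_combination (1 / 2) * D (u, 0) * (ra.1 * rb.2 - ra.2 * rb.1) * hI

/-! ### change of coordinates -/

section change

variable {r' : V × C2 → ℂ × ℂ} {h : V × (ℂ × ℂ) → ℂ × ℂ} {g' : V × (ℂ × ℂ) → ℂ} {q : V × C2}

theorem D_comp (hr : DifferentiableAt ℝ r q) (hh : DifferentiableAt ℂ h (q.1, r q))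
    (hr' : r' =ᶠ[𝓝 q] fun q => h (q.1, r q)) (p : V × C2) :
    fderiv ℝ r' q p = fderiv ℂ h (q.1, r q) (p.1, fderiv ℝ r q p) := by
  have h2 : HasFDerivAt (fun q : V × C2 => (q.1, r q))
      ((ContinuousLinearMap.fst ℝ V C2).prod (fderiv ℝ r q)) q :=
    HasFDerivAt.prodMk hasFDerivAt_fst hr.hasFDerivAt
  have h3 : HasFDerivAt (fun q : V × C2 => h (q.1, r q))
      (((fderiv ℂ h (q.1, r q)).restrictScalars ℝ).comp
        ((ContinuousLinearMap.fst ℝ V C2).prod (fderiv ℝ r q))) q :=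
    (hh.hasFDerivAt.restrictScalars ℝ).comp q h2
  rw [hr'.fderiv_eq, h3.fderiv]
  rfl

theorem D_snd {t : V} {w : ℂ × ℂ} (hh : DifferentiableAt ℂ h (t, w)) (b : ℂ × ℂ) :
    fderiv ℂ h (t, w) (0, b) = fderiv ℂ (fun w => h (t, w)) w b := by
  have h2 : HasFDerivAt (fun w => h (t, w))
      ((fderiv ℂ h (t, w)).comp (ContinuousLinearMap.inr ℂ V (ℂ × ℂ))) w :=
    hh.hasFDerivAt.comp w (hasFDerivAt_prodMk_right t w)
  rw [h2.fderiv]
  rfl

theorem tl_change (hr : DifferentiableAt ℝ r q) (hh : DifferentiableAt ℂ h (q.1, r q))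
    (hr' : r' =ᶠ[𝓝 q] fun q => h (q.1, r q))
    (law : g (q.1, r q) = g' (q.1, h (q.1, r q)) *
      (fderiv ℂ (fun w => h (q.1, w)) (r q)).det) (a b : C2) : tl g' r' q a b = tl g r q a b := by
  rw [tl, tl, D_comp hr hh hr', D_comp hr hh hr', D_snd hh, D_snd hh, det2_map, law,
    hr'.self_of_nhds]
  ring

theorem al_change (hr : DifferentiableAt ℝ r (t₁, z)) (hh : DifferentiableAt ℂ h (t₁, r (t₁, z)))
    (hr' : r' =ᶠ[𝓝 (t₁, z)] fun q => h (q.1, r q))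
    (law : g (t₁, r (t₁, z)) = g' (t₁, h (t₁, r (t₁, z))) *
      (fderiv ℂ (fun w => h (t₁, w)) (r (t₁, z))).det) (u : V) (b : C2) :
    al g' r' t₁ u z b = al g r t₁ u z b := by
  have h1 : kk r' t₁ u z = fderiv ℂ (fun w => h (t₁, w)) (r (t₁, z)) (kk r t₁ u z) := by
    rw [← D_snd hh, kk, D_comp hr hh hr', D_comp hr hh hr', ← map_smul, ← map_add, ← map_smul]
    congr 1
    ext
    · have hI : Complex.I * Complex.I = -1 := Complex.I_mul_I
      simp only [Prod.smul_fst, Prod.fst_add, smul_smul, hI]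
      simp
    · simp [kk]
    · simp [kk]
  rw [al, al, h1, D_comp hr hh hr', D_snd hh, det2_map, law, hr'.self_of_nhds]
  ring

theorem D_base {c : C2 → C2} (hr : DifferentiableAt ℝ r (t₁, c z)) (hc : DifferentiableAt ℝ c z)
    (hr' : r' =ᶠ[𝓝 (t₁, z)] fun q => r (q.1, c q.2)) (p : V × C2) :
    fderiv ℝ r' (t₁, z) p = fderiv ℝ r (t₁, c z) (p.1, fderiv ℝ c z p.2) := by
  have h2 : HasFDerivAt (fun q : V × C2 => (q.1, c q.2))
      ((ContinuousLinearMap.fst ℝ V C2).prod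
        ((fderiv ℝ c z).comp (ContinuousLinearMap.snd ℝ V C2))) (t₁, z) :=
    HasFDerivAt.prodMk hasFDerivAt_fst
      (HasFDerivAt.comp (g := c) (t₁, z) hc.hasFDerivAt hasFDerivAt_snd)
  have h3 : HasFDerivAt (fun q : V × C2 => r (q.1, c q.2)) _ (t₁, z) :=
    HasFDerivAt.comp (g := r) (f := fun q : V × C2 => (q.1, c q.2)) (t₁, z) hr.hasFDerivAt h2
  rw [hr'.fderiv_eq, h3.fderiv]
  rfl

theorem al_base {c : C2 → C2} (hr : DifferentiableAt ℝ r (t₁, c z)) (hc : DifferentiableAt ℝ c z)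
    (hr' : r' =ᶠ[𝓝 (t₁, z)] fun q => r (q.1, c q.2)) (u : V) (b : C2) :
    al g r' t₁ u z b = al g r t₁ u (c z) (fderiv ℝ c z b) := by
  rw [al, al, kk, kk, D_base hr hc hr', D_base hr hc hr', D_base hr hc hr', map_zero,
    hr'.self_of_nhds]

end change

/-! ### smoothness -/

section smooth

theorem contDiffAt_clm {W F : Type*} [NormedAddCommGroup W] [NormedSpace ℝ W]
    [NormedAddCommGroup F] [NormedSpace ℝ F] {f : W → C2 →L[ℝ] F} {x : W} {n : WithTop ℕ∞}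
    (h : ∀ y, ContDiffAt ℝ n (fun x => f x y) x) : ContDiffAt ℝ n f x := by
  let d := Module.finrank ℝ C2
  have hd : d = Module.finrank ℝ (Fin d → ℝ) := (Module.finrank_fin_fun ℝ).symm
  let e₁ : C2 ≃L[ℝ] (Fin d → ℝ) := ContinuousLinearEquiv.ofFinrankEq hd
  let e₂ : (C2 →L[ℝ] F) ≃L[ℝ] (Fin d → F) :=
    (e₁.arrowCongr (1 : F ≃L[ℝ] F)).trans (ContinuousLinearEquiv.piRing (Fin d))
  rw [← Function.id_comp f, ← e₂.symm_comp_self]
  exact e₂.symm.contDiff.contDiffAt.comp x (contDiffAt_pi.mpr fun i => h _)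

theorem contDiffAt_det2 {W : Type*} [NormedAddCommGroup W] [NormedSpace ℝ W] {A B : W → ℂ × ℂ}
    {x : W} {n : WithTop ℕ∞} (hA : ContDiffAt ℝ n A x) (hB : ContDiffAt ℝ n B x) :
    ContDiffAt ℝ n (fun x => det2 (A x) (B x)) x := by
  simp only [det2]
  exact (hA.fst.mul hB.snd).sub (hA.snd.mul hB.fst)

theorem contDiffAt_g {q : V × C2} (hr : ContDiffAt ℝ ∞ r q) (hg : AnalyticAt ℂ g (q.1, r q)) :
    ContDiffAt ℝ ∞ (fun q : V × C2 => g (q.1, r q)) q :=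
  ContDiffAt.comp (g := g) (f := fun q : V × C2 => (q.1, r q)) q
    ((hg.contDiffAt (n := ∞)).restrict_scalars ℝ) (contDiffAt_fst.prodMk hr)

theorem contDiffAt_tl {q : V × C2} (hr : ContDiffAt ℝ ∞ r q) (hg : AnalyticAt ℂ g (q.1, r q))
    (a b : C2) : ContDiffAt ℝ ∞ (fun q => tl g r q a b) q := by
  have h1 : ∀ a, ContDiffAt ℝ ∞ (fun q => fderiv ℝ r q (0, a)) q := fun a =>
    (hr.fderiv_right infty_sub).clm_apply contDiffAt_const
  exact (contDiffAt_g hr hg).mul (contDiffAt_det2 (h1 a) (h1 b))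

theorem contDiffAt_al (hr : ContDiffAt ℝ ∞ r (t₁, z)) (hg : AnalyticAt ℂ g (t₁, r (t₁, z)))
    (u : V) (b : C2) : ContDiffAt ℝ ∞ (fun z => al g r t₁ u z b) z := by
  have hi : ContDiffAt ℝ ∞ (fun z : C2 => (t₁, z)) z := contDiffAt_const.prodMk contDiffAt_id
  have h1 : ∀ a, ContDiffAt ℝ ∞ (fun z => fderiv ℝ r (t₁, z) a) z := fun a =>
    (ContDiffAt.comp (g := fderiv ℝ r) (f := fun z : C2 => (t₁, z)) z
      (hr.fderiv_right infty_sub) hi).clm_apply contDiffAt_const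
  have h2 : ContDiffAt ℝ ∞ (fun z => g (t₁, r (t₁, z))) z :=
    ContDiffAt.comp (g := fun q : V × C2 => g (q.1, r q)) (f := fun z : C2 => (t₁, z)) z
      (contDiffAt_g hr hg) hi
  exact h2.mul (contDiffAt_det2 (((h1 (u, 0)).add ((h1 (Complex.I • u, 0)).const_smul
    Complex.I)).const_smul (1 / 2 : ℂ)) (h1 (0, b)))

end smooth

/-- `al` as a continuous linear map -/
def alL (g : V × (ℂ × ℂ) → ℂ) (r : V × C2 → ℂ × ℂ) (t₁ u : V) (z : C2) : C2 →L[ℝ] ℂ :=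
  g (t₁, r (t₁, z)) • (((kk r t₁ u z).1 • ContinuousLinearMap.snd ℝ ℂ ℂ -
    (kk r t₁ u z).2 • ContinuousLinearMap.fst ℝ ℂ ℂ).comp
      ((fderiv ℝ r (t₁, z)).comp (ContinuousLinearMap.inr ℝ V C2)))

theorem alL_apply (g : V × (ℂ × ℂ) → ℂ) (r : V × C2 → ℂ × ℂ) (t₁ u : V) (z b : C2) :
    alL g r t₁ u z b = al g r t₁ u z b := by
  simp [alL, al, det2]

end Vale.Agent.P290.H722
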