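import Vale.Agent.P290.H722.DInt
import Vale.Agent.P290.H686.Lin

/-!
# P290, Phase 2 (helper722): smooth families of two-forms on a compact surface

`SmFam T N` : the two-forms `T t`, `t ∈ N`, are smooth in `(t, z)` jointly. `dT T t₁ u` : derivative
at `t₁` in the direction `u`; it is a smooth form, closed if the `T t` are. The derivative of
`t ↦ ∫ T t ∧ G` is `∫ dT ∧ G`.
-/

set_option linter.unusedSectionVars false
set_option linter.unusedVariables false

open scoped Manifold ContDiff Topology ComplexConjugate Matrix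
open MeasureTheory Set Filter Vale.Agent.P267.FL Vale.Agent.P290.H686

noncomputable section

namespace Vale.Agent.P290.H722

section mixed

variable {V : Type*} [NormedAddCommGroup V] [NormedSpace ℝ V]
variable {W : Type*} [NormedAddCommGroup W] [NormedSpace ℝ W] {f : V × C2 → W} {t₁ : V} {z : C2}

theorem contDiffAt_part (hf : ContDiffAt ℝ ∞ f (t₁, z)) (u : V) :
    ContDiffAt ℝ ∞ (fun z : C2 => fderiv ℝ f (t₁, z) (u, 0)) z :=
  (ContDiffAt.comp (g := fderiv ℝ f) (f := fun z : C2 => (t₁, z)) z (hf.fderiv_right infty_sub)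
    (contDiffAt_const.prodMk contDiffAt_id)).clm_apply contDiffAt_const

/-- mixed derivatives -/
theorem mixed (hf : ContDiffAt ℝ 2 f (t₁, z)) (u : V) (a : C2) :
    HasFDerivAt (fun t => fderiv ℝ (fun y => f (t, y)) z a)
      (((fderiv ℝ (fderiv ℝ f) (t₁, z)).comp (ContinuousLinearMap.inl ℝ V C2)).flip (0, a)) t₁ ∧
    fderiv ℝ (fun y => fderiv ℝ f (t₁, y) (u, 0)) z a =
      ((fderiv ℝ (fderiv ℝ f) (t₁, z)).comp (ContinuousLinearMap.inl ℝ V C2)).flip (0, a) u := by
  have hd2 : DifferentiableAt ℝ (fderiv ℝ f) (t₁, z) :=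
    (hf.fderiv_right (m := 1) (by norm_num)).differentiableAt (by norm_num)
  constructor
  · have h1 : (fun t => fderiv ℝ (fun y => f (t, y)) z a) =ᶠ[𝓝 t₁]
        fun t => fderiv ℝ f (t, z) (0, a) := by
      have h0 : ∀ᶠ q in 𝓝 (t₁, z), ContDiffAt ℝ 2 f q := hf.eventually (by simp)
      have h0' : ∀ᶠ t in 𝓝 t₁, ContDiffAt ℝ 2 f (t, z) :=
        (Continuous.tendsto' (f := fun t : V => (t, z)) (by fun_prop) t₁ (t₁, z) rfl).eventually h0
      filter_upwards [h0'] with t ht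
      have h2 : HasFDerivAt (fun y : C2 => f (t, y))
          ((fderiv ℝ f (t, z)).comp (ContinuousLinearMap.inr ℝ V C2)) z :=
        (ht.differentiableAt (by norm_num)).hasFDerivAt.comp z (hasFDerivAt_prodMk_right t z)
      rw [h2.fderiv]
      simp
    have h4 : HasFDerivAt (fun t => fderiv ℝ f (t, z))
        ((fderiv ℝ (fderiv ℝ f) (t₁, z)).comp (ContinuousLinearMap.inl ℝ V C2)) t₁ :=
      hd2.hasFDerivAt.comp t₁ (hasFDerivAt_prodMk_left t₁ z)
    have h5 := h4.clm_apply (hasFDerivAt_const ((0, a) : V × C2) t₁)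
    refine (h5.congr_of_eventuallyEq h1).congr_fderiv ?_
    ext u
    simp
  · have h2 : HasFDerivAt (fun y : C2 => fderiv ℝ f (t₁, y))
        ((fderiv ℝ (fderiv ℝ f) (t₁, z)).comp (ContinuousLinearMap.inr ℝ V C2)) z :=
      hd2.hasFDerivAt.comp z (hasFDerivAt_prodMk_right t₁ z)
    have h3 := h2.clm_apply (hasFDerivAt_const ((u, 0) : V × C2) z)
    rw [h3.fderiv]
    have h4 : fderiv ℝ (fderiv ℝ f) (t₁, z) (0, a) (u, 0) =
        fderiv ℝ (fderiv ℝ f) (t₁, z) (u, 0) (0, a) := (hf.isSymmSndFDerivAt (by simp)) _ _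
    simp [h4]

end mixed

variable {X : Type*} [TopologicalSpace X] [ChartedSpace C2 X] [IsManifold 𝓘(ℂ, C2) ω X]
variable {V : Type*} [NormedAddCommGroup V] [NormedSpace ℝ V]

/-- the two-forms `T t`, `t ∈ N`, are smooth in `(t, z)` jointly, in all charts -/
def SmFam (T : V → TwoF X) (N : Set V) : Prop :=
  ∀ t ∈ N, ∀ e ∈ atlas C2 X, ∀ z ∈ e.target,
    ContDiffAt ℝ ∞ (fun q : V × C2 => E2 e (T q.1) q.2) (t, z)

/-- the derivative at `t₁` in the direction `u`, as a family of bilinear maps -/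
def dV (T : V → TwoF X) (t₁ u : V) (x : X) : C2 →L[ℝ] C2 →L[ℝ] ℂ :=
  fderiv ℝ (fun t => val2 (T t) x) t₁ u

/-- the derivative at `t₁` in the direction `u` -/
def dT (T : V → TwoF X) (t₁ u : V) : TwoF X where
  f20 x := c20 fun v => dV T t₁ u x v
  f11 x := c11 fun v => dV T t₁ u x v
  f02 x := c02 fun v => dV T t₁ u x v

variable {T : V → TwoF X} {N : Set V} {t₁ : V}

theorem val2_eq_E2 (F : TwoF X) (x : X) : val2 F x = E2 (chartAt C2 x) F (chartAt C2 x x) := by
  ext v w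
  rw [E2_apply (chart_mem_atlas C2 x) F (mem_chart_source C2 x), Dch_chartAt]
  rfl

namespace SmFam

theorem mono (h : SmFam T N) {N' : Set V} (hN : N' ⊆ N) : SmFam T N' := fun t ht => h t (hN ht)

theorem smooth (h : SmFam T N) (ht : t₁ ∈ N) : (T t₁).Smooth := by
  rw [smooth2_iff]
  intro e he z hz
  exact ContDiffAt.comp (g := fun q : V × C2 => E2 e (T q.1) q.2) (f := fun z : C2 => (t₁, z)) z
    (h t₁ ht e he z hz) (contDiffAt_const.prodMk contDiffAt_id)

theorem differentiable_E2 (h : SmFam T N) (ht : t₁ ∈ N) {e : Ch X} (he : e ∈ atlas C2 X) {z : C2}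
    (hz : z ∈ e.target) : DifferentiableAt ℝ (fun q : V × C2 => E2 e (T q.1) q.2) (t₁, z) :=
  (h t₁ ht e he z hz).differentiableAt (by simp)

theorem hasFDerivAt_E2 (h : SmFam T N) (ht : t₁ ∈ N) {e : Ch X} (he : e ∈ atlas C2 X) {z : C2}
    (hz : z ∈ e.target) : HasFDerivAt (fun t => E2 e (T t) z)
      ((fderiv ℝ (fun q : V × C2 => E2 e (T q.1) q.2) (t₁, z)).comp
        (ContinuousLinearMap.inl ℝ V C2)) t₁ :=
  hasFDerivAt_part (fun q : V × C2 => E2 e (T q.1) q.2) (h.differentiable_E2 ht he hz)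

theorem differentiable_val2 (h : SmFam T N) (ht : t₁ ∈ N) (x : X) :
    DifferentiableAt ℝ (fun t => val2 (T t) x) t₁ := by
  have h1 : (fun t => val2 (T t) x) = fun t => E2 (chartAt C2 x) (T t) (chartAt C2 x x) := by
    funext t
    exact val2_eq_E2 _ x
  rw [h1]
  exact (h.hasFDerivAt_E2 ht (chart_mem_atlas C2 x) (mem_chart_target C2 x)).differentiableAt

theorem hasFDerivAt_val2 (h : SmFam T N) (ht : t₁ ∈ N) (x : X) (v w : C2) :
    HasFDerivAt (fun t => val2 (T t) x v w)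
      (((fderiv ℝ (fun t => val2 (T t) x) t₁).flip v).flip w) t₁ := by
  have h1 := (h.differentiable_val2 ht x).hasFDerivAt
  have h2 := (h1.clm_apply (hasFDerivAt_const v t₁)).clm_apply (hasFDerivAt_const w t₁)
  refine h2.congr_fderiv ?_
  ext u
  simp

theorem dV_swap (h : SmFam T N) (ht : t₁ ∈ N) (u : V) (x : X) (v w : C2) :
    dV T t₁ u x v w = -dV T t₁ u x w v := by
  have h1 := h.hasFDerivAt_val2 ht x v w
  have h2 := (h.hasFDerivAt_val2 ht x w v).fun_neg
  have h3 : (fun t => -val2 (T t) x w v) = fun t => val2 (T t) x v w := by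
    funext t
    exact (val2_swap (T t) x v w).symm
  rw [h3] at h2
  exact congrArg (fun L => L u) (h1.unique h2)

theorem val2_dT (h : SmFam T N) (ht : t₁ ∈ N) (u : V) (x : X) :
    val2 (dT T t₁ u) x = fderiv ℝ (fun t => val2 (T t) x) t₁ u :=
  ev2_comps _ fun v w => h.dV_swap ht u x v w

theorem val2_dT_apply (h : SmFam T N) (ht : t₁ ∈ N) (u : V) (x : X) (v w : C2) :
    val2 (dT T t₁ u) x v w = fderiv ℝ (fun t => val2 (T t) x v w) t₁ u := by
  rw [h.val2_dT ht, (h.hasFDerivAt_val2 ht x v w).fderiv]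
  rfl

theorem hasFDerivAt_val2' (h : SmFam T N) (ht : t₁ ∈ N) (x : X) (v w : C2) :
    HasFDerivAt (fun t => val2 (T t) x v w) (fderiv ℝ (fun t => val2 (T t) x v w) t₁) t₁ :=
  (h.hasFDerivAt_val2 ht x v w).differentiableAt.hasFDerivAt

/-- the derivative in charts -/
theorem E2_dT_apply (h : SmFam T N) (ht : t₁ ∈ N) (u : V) {e : Ch X} (he : e ∈ atlas C2 X) {z : C2}
    (hz : z ∈ e.target) (v w : C2) : E2 e (dT T t₁ u) z v w =
      fderiv ℝ (fun q : V × C2 => E2 e (T q.1) q.2) (t₁, z) (u, 0) v w := by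
  obtain ⟨x, hx, rfl⟩ : ∃ x ∈ e.source, e x = z := ⟨e.symm z, e.map_target hz, e.right_inv hz⟩
  rw [E2_apply he _ hx, h.val2_dT_apply ht]
  have h1 : (fun t => val2 (T t) x (Dch e x v) (Dch e x w)) = fun t => E2 e (T t) (e x) v w := by
    funext t
    rw [E2_apply he _ hx]
  have h2 := ((h.hasFDerivAt_E2 ht he hz).clm_apply (hasFDerivAt_const v t₁)).clm_apply
    (hasFDerivAt_const w t₁)
  rw [h1, h2.fderiv]
  simp

theorem E2_dT (h : SmFam T N) (ht : t₁ ∈ N) (u : V) {e : Ch X} (he : e ∈ atlas C2 X) {z : C2}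
    (hz : z ∈ e.target) : E2 e (dT T t₁ u) z =
      fderiv ℝ (fun q : V × C2 => E2 e (T q.1) q.2) (t₁, z) (u, 0) := by
  ext v w
  exact h.E2_dT_apply ht u he hz v w

/-- the derivative is a smooth form -/
theorem smooth_dT (h : SmFam T N) (ht : t₁ ∈ N) (u : V) : (dT T t₁ u).Smooth := by
  rw [smooth2_iff]
  intro e he z hz
  have h2 : ContDiffAt ℝ ∞ (fun z : C2 => fderiv ℝ (fun q : V × C2 => E2 e (T q.1) q.2) (t₁, z)
      (u, 0)) z := contDiffAt_part (h t₁ ht e he z hz) u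
  refine h2.congr_of_eventuallyEq ?_
  filter_upwards [e.open_target.mem_nhds hz] with w hw
  exact h.E2_dT ht u he hw

/-- the derivative of a family of closed forms is closed -/
theorem closed_dT (h : SmFam T N) (hN : IsOpen N) (ht : t₁ ∈ N) (hc : ∀ t ∈ N, (T t).Closed)
    (u : V) : (dT T t₁ u).Closed := by
  rw [closed_iff' (h.smooth_dT ht u)]
  intro e he x hx a b c
  set z := e x with hz'
  have hz : z ∈ e.target := e.map_source hx
  set f : V × C2 → C2 →L[ℝ] C2 →L[ℝ] ℂ := fun q => E2 e (T q.1) q.2 with hf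
  have hsm : ContDiffAt ℝ ∞ f (t₁, z) := h t₁ ht e he z hz
  have hm := fun a => mixed (hsm.of_le ENat.LEInfty.out : ContDiffAt ℝ 2 f (t₁, z)) u a
  have hdT : E2 e (dT T t₁ u) =ᶠ[𝓝 z] fun y => fderiv ℝ f (t₁, y) (u, 0) := by
    filter_upwards [e.open_target.mem_nhds hz] with w hw
    exact h.E2_dT ht u he hw
  have key : ∀ a b c : C2, HasFDerivAt (fun t => fderiv ℝ (E2 e (T t)) z a b c)
      (fderiv ℝ (fun t => fderiv ℝ (E2 e (T t)) z a b c) t₁) t₁ ∧
      fderiv ℝ (E2 e (dT T t₁ u)) z a b c =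
        fderiv ℝ (fun t => fderiv ℝ (E2 e (T t)) z a b c) t₁ u := by
    intro a b c
    have h1 : HasFDerivAt (fun t => fderiv ℝ (E2 e (T t)) z a) _ t₁ := (hm a).1
    have h5 := (h1.clm_apply (hasFDerivAt_const b t₁)).clm_apply (hasFDerivAt_const c t₁)
    refine ⟨h5.differentiableAt.hasFDerivAt, ?_⟩
    rw [hdT.fderiv_eq, (hm a).2, h5.fderiv]
    simp
  -- the closedness of `T t`
  have hzero : (fun t => fderiv ℝ (E2 e (T t)) z a b c + fderiv ℝ (E2 e (T t)) z b c a +
      fderiv ℝ (E2 e (T t)) z c a b) =ᶠ[𝓝 t₁] fun _ => 0 := by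
    filter_upwards [hN.mem_nhds ht] with t htN
    exact (closed_iff' (h.smooth htN)).1 (hc t htN) e he x hx a b c
  have h6 := ((key a b c).1.fun_add (key b c a).1).fun_add (key c a b).1
  have h7 := (h6.congr_of_eventuallyEq hzero.symm).unique (hasFDerivAt_const (0 : ℂ) t₁)
  have h8 := congrArg (fun L => L u) h7
  simp only [_root_.add_apply, _root_.zero_apply] at h8
  rw [alt2, (key a b c).2, (key b c a).2, (key c a b).2]
  exact h8

/-! ### integrals -/

/-- `T t ∧ G` is a family of top forms -/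
theorem topFam (h : SmFam T N) {G : TwoF X} (hG : G.Smooth) :
    TopFam (fun t => (T t).wedge G) N := by
  intro t ht e he z hz
  have h1 := h t ht e he z hz
  have h2 : ContDiffAt ℝ ∞ (fun q : V × C2 => E2 e G q.2) (t, z) :=
    ContDiffAt.comp (g := E2 e G) (f := fun q : V × C2 => q.2) (t, z)
      (smooth2_iff.1 hG e he z hz) contDiffAt_snd
  have h3 : ContDiffAt ℝ ∞ (fun q : V × C2 => (1 / 4 : ℂ) * wd (E2 e (T q.1) q.2) (E2 e G q.2)
      (Pi.single 0 1) (Pi.single 0 Complex.I) (Pi.single 1 1) (Pi.single 1 Complex.I)) (t, z) := by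
    have k : ∀ (S : V × C2 → C2 →L[ℝ] C2 →L[ℝ] ℂ), ContDiffAt ℝ ∞ S (t, z) → ∀ a b : C2,
        ContDiffAt ℝ ∞ (fun q => S q a b) (t, z) := fun S hS a b =>
      (hS.clm_apply contDiffAt_const).clm_apply contDiffAt_const
    simp only [wd]
    refine contDiffAt_const.mul ?_
    exact ((((((k _ h1 _ _).mul (k _ h2 _ _)).add ((k _ h1 _ _).mul (k _ h2 _ _))).sub
      ((k _ h1 _ _).mul (k _ h2 _ _))).sub ((k _ h1 _ _).mul (k _ h2 _ _))).add
      ((k _ h1 _ _).mul (k _ h2 _ _))).add ((k _ h1 _ _).mul (k _ h2 _ _))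
  refine (h3.congr_of_eventuallyEq ?_).of_le ENat.LEInfty.out
  have h4 : ∀ᶠ q : V × C2 in 𝓝 (t, z), q.2 ∈ e.target :=
    continuousAt_snd.eventually_mem (e.open_target.mem_nhds hz)
  filter_upwards [h4] with q hq
  have := loc2_wedge he (e.map_target hq) (T q.1) G
  rw [e.right_inv hq] at this
  show loc2 1 e ((T q.1).wedge G) q.2 = _
  rw [← this]
  ring

theorem wedge_eq (F G : TwoF X) (x : X) : F.wedge G x = (1 / 4 : ℂ) * wd (val2 F x) (val2 G x)
    (Pi.single 0 1) (Pi.single 0 Complex.I) (Pi.single 1 1) (Pi.single 1 Complex.I) := by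
  have h := loc2_wedge (chart_mem_atlas C2 x) (mem_chart_source C2 x) F G
  rw [← val2_eq_E2, ← val2_eq_E2, loc2_chartAt] at h
  rw [← h]
  ring

theorem dTop_wedge (h : SmFam T N) (ht : t₁ ∈ N) (G : TwoF X) (u : V) :
    dTop (fun t => (T t).wedge G) t₁ u = (dT T t₁ u).wedge G := by
  funext x
  have k : ∀ a b : C2, ∀ c : ℂ, HasFDerivAt (fun t => val2 (T t) x a b * c)
      (c • fderiv ℝ (fun t => val2 (T t) x a b) t₁) t₁ := fun a b c => by
    have := (h.hasFDerivAt_val2' ht x a b).mul_const c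
    simpa only [mul_comm] using this
  have hs := (((((k (Pi.single 0 1) (Pi.single 0 Complex.I)
      (val2 G x (Pi.single 1 1) (Pi.single 1 Complex.I))).fun_add
    (k (Pi.single 1 1) (Pi.single 1 Complex.I)
      (val2 G x (Pi.single 0 1) (Pi.single 0 Complex.I)))).fun_sub
    (k (Pi.single 0 1) (Pi.single 1 1)
      (val2 G x (Pi.single 0 Complex.I) (Pi.single 1 Complex.I)))).fun_sub
    (k (Pi.single 0 Complex.I) (Pi.single 1 Complex.I)
      (val2 G x (Pi.single 0 1) (Pi.single 1 1)))).fun_add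
    (k (Pi.single 0 1) (Pi.single 1 Complex.I)
      (val2 G x (Pi.single 0 Complex.I) (Pi.single 1 1)))).fun_add
    (k (Pi.single 0 Complex.I) (Pi.single 1 1)
      (val2 G x (Pi.single 0 1) (Pi.single 1 Complex.I)))
  have hs2 := hs.const_mul (1 / 4 : ℂ)
  have h1 : (fun t => (T t).wedge G x) = fun t => (1 / 4 : ℂ) * wd (val2 (T t) x) (val2 G x)
      (Pi.single 0 1) (Pi.single 0 Complex.I) (Pi.single 1 1) (Pi.single 1 Complex.I) := by
    funext t
    exact wedge_eq (T t) G x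
  rw [dTop, h1, wedge_eq]
  simp only [wd]
  rw [hs2.fderiv]
  simp only [h.val2_dT_apply ht, _root_.smul_apply, _root_.add_apply, _root_.sub_apply,
    smul_eq_mul]
  ring

variable [T2Space X] [CompactSpace X]

/-- **Derivative of the pairing with a fixed form.** -/
theorem hasFDerivAt_pair (h : SmFam T N) (hN : IsOpen N) (ht : t₁ ∈ N) {G : TwoF X}
    (hG : G.Smooth) : ∃ L : V →L[ℝ] ℂ, HasFDerivAt (fun t => intX ((T t).wedge G)) L t₁ ∧
      ∀ u, L u = intX ((dT T t₁ u).wedge G) := by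
  obtain ⟨L, hL, hL2⟩ := (h.topFam hG).hasFDerivAt_intX hN ht
  exact ⟨L, hL, fun u => by rw [hL2, h.dTop_wedge ht]⟩

end SmFam

end Vale.Agent.P290.H722
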